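import Mathlib
import Crest.Prelude.Def_ModularData

/-! Basic facts about the bounded continuous functional calculus `LineCalculus`. -/

set_option autoImplicit false

namespace Crest.Agent.R84

open Crest.OpAlg Crest.OpAlg.LineCalculus MeasureTheory Filter
open scoped Topology BoundedContinuousFunction InnerProductSpace

variable {H : Type*} [NormedAddCommGroup H] [InnerProductSpace ℂ H] [CompleteSpace H]

lemma norm_apply_le (D : LineCalculus H) (f : ℝ →ᵇ ℂ) : ‖D.apply f‖ ≤ ‖f‖ :=
  NonUnitalStarAlgHom.norm_apply_le D.apply f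

lemma norm_apply_apply_le (D : LineCalculus H) (f : ℝ →ᵇ ℂ) (x : H) :
    ‖D.apply f x‖ ≤ ‖f‖ * ‖x‖ :=
  ((D.apply f).le_opNorm x).trans (mul_le_mul_of_nonneg_right (norm_apply_le D f) (norm_nonneg _))

lemma apply_mul_apply (D : LineCalculus H) (f g : ℝ →ᵇ ℂ) (x : H) :
    D.apply (f * g) x = D.apply f (D.apply g x) := by
  rw [map_mul]; rfl

lemma apply_sub_apply (D : LineCalculus H) (f g : ℝ →ᵇ ℂ) (x : H) :
    D.apply (f - g) x = D.apply f x - D.apply g x := by
  rw [map_sub]; rfl

lemma apply_one_apply (D : LineCalculus H) (x : H) : D.apply 1 x = x := by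
  rw [map_one]; rfl

lemma inner_apply_left (D : LineCalculus H) (f : ℝ →ᵇ ℂ) (x y : H) :
    ⟪D.apply f x, y⟫_ℂ = ⟪x, D.apply (star f) y⟫_ℂ := by
  rw [map_star, ContinuousLinearMap.star_eq_adjoint, ContinuousLinearMap.adjoint_inner_right]

lemma character_apply (t u : ℝ) :
    character t u = Complex.exp (Complex.I * ((t * u : ℝ) : ℂ)) := rfl

lemma norm_character_apply (t u : ℝ) : ‖character t u‖ = 1 := by
  rw [character_apply, Complex.norm_exp]; simp

lemma norm_character_le (t : ℝ) : ‖character t‖ ≤ 1 :=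
  (BoundedContinuousFunction.norm_le zero_le_one).2 fun u => (norm_character_apply t u).le

lemma character_add (s t : ℝ) : character (s + t) = character s * character t := by
  ext u
  simp only [BoundedContinuousFunction.mul_apply, character_apply, ← Complex.exp_add]
  congr 1; push_cast; ring

lemma character_zero : character 0 = 1 := by
  ext u
  simp [character_apply]

lemma star_character (t : ℝ) : star (character t) = character (-t) := by
  ext u
  simp only [BoundedContinuousFunction.star_apply, character_apply, RCLike.star_def,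
    ← Complex.exp_conj, map_mul, Complex.conj_I, Complex.conj_ofReal]
  congr 1; push_cast; ring

lemma wave_add (D : LineCalculus H) (s t : ℝ) : D.wave (s + t) = D.wave s * D.wave t := by
  simp only [wave, character_add, map_mul]

lemma wave_add_apply (D : LineCalculus H) (s t : ℝ) (x : H) :
    D.wave (s + t) x = D.wave s (D.wave t x) := by
  rw [wave_add]; rfl

lemma wave_zero (D : LineCalculus H) : D.wave 0 = 1 := by
  simp only [wave, character_zero, map_one]

lemma star_wave (D : LineCalculus H) (t : ℝ) : star (D.wave t) = D.wave (-t) := by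
  simp only [wave, ← map_star, star_character]

lemma wave_neg_wave (D : LineCalculus H) (t : ℝ) (x : H) : D.wave (-t) (D.wave t x) = x := by
  rw [← wave_add_apply, neg_add_cancel, wave_zero]; rfl

lemma wave_wave_neg (D : LineCalculus H) (t : ℝ) (x : H) : D.wave t (D.wave (-t) x) = x := by
  rw [← wave_add_apply, add_neg_cancel, wave_zero]; rfl

lemma inner_wave_left (D : LineCalculus H) (t : ℝ) (x y : H) :
    ⟪D.wave t x, y⟫_ℂ = ⟪x, D.wave (-t) y⟫_ℂ := by
  rw [wave, inner_apply_left, star_character]; rfl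

lemma inner_wave_right (D : LineCalculus H) (t : ℝ) (x y : H) :
    ⟪x, D.wave t y⟫_ℂ = ⟪D.wave (-t) x, y⟫_ℂ := by
  rw [inner_wave_left, neg_neg]

lemma norm_wave (D : LineCalculus H) (t : ℝ) (x : H) : ‖D.wave t x‖ = ‖x‖ := by
  have h : ⟪D.wave t x, D.wave t x⟫_ℂ = ⟪x, x⟫_ℂ := by
    rw [inner_wave_left, wave_neg_wave]
  rw [inner_self_eq_norm_sq_to_K, inner_self_eq_norm_sq_to_K] at h
  have h2 : ‖D.wave t x‖ ^ 2 = ‖x‖ ^ 2 := by exact_mod_cast h
  exact (sq_eq_sq₀ (norm_nonneg _) (norm_nonneg _)).1 h2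

/-- Functions that are small on a large window act with small norm on a fixed vector. -/
lemma exists_window (D : LineCalculus H) (x : H) {ε : ℝ} (hε : 0 < ε) :
    ∃ R K : ℝ, 0 ≤ R ∧ 0 ≤ K ∧ ∀ (g : ℝ →ᵇ ℂ) (η : ℝ), 0 ≤ η →
      (∀ u, |u| ≤ R → ‖g u‖ ≤ η) → ‖D.apply g x‖ ≤ ε * ‖g‖ + η * K := by
  obtain ⟨f, hf, hfx⟩ := D.window x ε hε
  obtain ⟨R, hR⟩ := hf.isCompact.isBounded.subset_closedBall 0
  refine ⟨max R 0, ‖f‖ * ‖x‖, le_max_right _ _, by positivity, fun g η hη hg => ?_⟩
  have h1 : D.apply g x = D.apply (g * f) x - D.apply g (D.apply f x - x) := by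
    rw [apply_mul_apply, map_sub]; abel
  have h2 : ‖g * f‖ ≤ η * ‖f‖ := by
    refine (BoundedContinuousFunction.norm_le (by positivity)).2 fun u => ?_
    rw [BoundedContinuousFunction.mul_apply, norm_mul]
    by_cases hu : |u| ≤ max R 0
    · exact mul_le_mul (hg u hu) (f.norm_coe_le_norm u) (norm_nonneg _) hη
    · have : f u = 0 := by
        by_contra hne
        have h3 : u ∈ tsupport (f : ℝ → ℂ) := subset_tsupport _ hne
        have h4 := hR h3
        rw [Metric.mem_closedBall, dist_zero_right, Real.norm_eq_abs] at h4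
        exact hu (h4.trans (le_max_left _ _))
      rw [this, norm_zero, mul_zero]; positivity
  calc ‖D.apply g x‖ ≤ ‖D.apply (g * f) x‖ + ‖D.apply g (D.apply f x - x)‖ := by
        rw [h1]; exact norm_sub_le _ _
    _ ≤ ‖g * f‖ * ‖x‖ + ‖g‖ * ‖D.apply f x - x‖ :=
        add_le_add (norm_apply_apply_le _ _ _) (norm_apply_apply_le _ _ _)
    _ ≤ η * ‖f‖ * ‖x‖ + ‖g‖ * ε := by gcongr
    _ = ε * ‖g‖ + η * (‖f‖ * ‖x‖) := by ring

lemma norm_character_sub_le (s t u : ℝ) :
    ‖character s u - character t u‖ ≤ |s - t| * |u| := by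
  have h1 : character s u - character t u =
      character t u * (Complex.exp (Complex.I * (((s - t) * u : ℝ) : ℂ)) - 1) := by
    rw [mul_sub, mul_one, character_apply, character_apply, ← Complex.exp_add]
    congr 2; push_cast; ring
  rw [h1, norm_mul, norm_character_apply, one_mul, ← abs_mul]
  simpa [Real.norm_eq_abs] using Real.norm_exp_I_mul_ofReal_sub_one_le (x := (s - t) * u)

/-- The unitary group is strongly continuous. -/
lemma continuous_wave (D : LineCalculus H) (x : H) : Continuous fun t => D.wave t x := by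
  rw [Metric.continuous_iff]
  intro t ε hε
  obtain ⟨R, K, hR, hK, h⟩ := exists_window D x (ε := ε / 4) (by positivity)
  refine ⟨ε / (4 * (R * K + 1)), by positivity, fun s hs => ?_⟩
  rw [dist_eq_norm, wave, wave, ← apply_sub_apply]
  rw [Real.dist_eq] at hs
  have h1 := h (character s - character t) (|s - t| * R) (by positivity) (fun u hu => by
    rw [BoundedContinuousFunction.sub_apply]
    exact (norm_character_sub_le s t u).trans (by gcongr))
  have h2 : ‖character s - character t‖ ≤ 2 :=
    (norm_sub_le _ _).trans (by linarith [norm_character_le s, norm_character_le t])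
  have h3 : |s - t| * R * K ≤ ε / 4 := by
    have hRK : 0 ≤ R * K := by positivity
    calc |s - t| * R * K = |s - t| * (R * K) := by ring
      _ ≤ ε / (4 * (R * K + 1)) * (R * K + 1) := by gcongr; linarith
      _ = ε / 4 := by field_simp
  calc _ ≤ ε / 4 * ‖character s - character t‖ + |s - t| * R * K := h1
    _ ≤ ε / 4 * 2 + ε / 4 := by gcongr
    _ < ε := by linarith

/-- Compactly supported real cut-offs with values in `[0,1]`, equal to one on `[-R, R]`. -/
lemma exists_cutoff (R : ℝ) : ∃ χ : ℝ →ᵇ ℂ, HasCompactSupport (χ : ℝ → ℂ) ∧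
    (∀ u, |u| ≤ R → χ u = 1) ∧ ‖χ‖ ≤ 1 := by
  obtain ⟨f, hf1, -, hfc, hf⟩ := exists_continuous_one_zero_of_isCompact
    (isCompact_Icc (a := -R) (b := R)) isClosed_empty (Set.disjoint_empty _)
  have hc : Continuous fun u => ((f u : ℝ) : ℂ) := by fun_prop
  have hcs : HasCompactSupport fun u => ((f u : ℝ) : ℂ) :=
    hfc.comp_left (g := fun r : ℝ => (r : ℂ)) (by simp)
  refine ⟨BoundedContinuousFunction.ofNormedAddCommGroup _ hc 1 (fun u => ?_), hcs,
    fun u hu => ?_, ?_⟩
  · rw [Complex.norm_real, Real.norm_eq_abs, abs_of_nonneg (hf u).1]; exact (hf u).2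
  · have : f u = 1 := hf1 (abs_le.1 hu)
    change ((f u : ℝ) : ℂ) = 1
    rw [this]; simp
  · exact BoundedContinuousFunction.norm_ofNormedAddCommGroup_le _ zero_le_one _

/-- Cut-offs of norm at most one approximate every vector. -/
lemma exists_cutoff_approx (D : LineCalculus H) (x : H) {ε : ℝ} (hε : 0 < ε) :
    ∃ χ : ℝ →ᵇ ℂ, HasCompactSupport (χ : ℝ → ℂ) ∧ ‖χ‖ ≤ 1 ∧ ‖D.apply χ x - x‖ ≤ ε := by
  obtain ⟨R, K, -, -, h⟩ := exists_window D x (ε := ε / 2) (by positivity)
  obtain ⟨χ, h1, h2, h3⟩ := exists_cutoff R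
  refine ⟨χ, h1, h3, ?_⟩
  have h4 := h (χ - 1) 0 le_rfl (fun u hu => by simp [h2 u hu])
  rw [apply_sub_apply, apply_one_apply] at h4
  have h5 : ‖χ - 1‖ ≤ 2 := (norm_sub_le _ _).trans (by
    have : ‖(1 : ℝ →ᵇ ℂ)‖ = 1 := norm_one
    linarith)
  calc _ ≤ ε / 2 * ‖χ - 1‖ + 0 * K := h4
    _ ≤ ε / 2 * 2 + 0 * K := by gcongr
    _ = ε := by ring

/-- A compactly supported continuous function as a bounded continuous function. -/
lemma exists_bcf_of_compactSupport {g : ℝ → ℂ} (hg : Continuous g) (hc : HasCompactSupport g) :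
    ∃ f : ℝ →ᵇ ℂ, ∀ u, f u = g u := by
  obtain ⟨C, hC⟩ := hg.bounded_above_of_compact_support hc
  exact ⟨BoundedContinuousFunction.ofNormedAddCommGroup g hg C hC, fun _ => rfl⟩

section Supported

variable {D : LineCalculus H} {K : Set ℝ}

lemma supp_congr {x : H} (hx : D.SupportedIn K x) {f g : ℝ →ᵇ ℂ} (h : ∀ u ∈ K, f u = g u) :
    D.apply f x = D.apply g x := by
  have := hx (f - g) (fun u hu => by simp [h u hu])
  rwa [apply_sub_apply, sub_eq_zero] at this

lemma supp_zero : D.SupportedIn K 0 := fun _ _ => map_zero _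

lemma supp_add {x y : H} (hx : D.SupportedIn K x) (hy : D.SupportedIn K y) :
    D.SupportedIn K (x + y) := fun f hf => by rw [map_add, hx f hf, hy f hf, add_zero]

lemma supp_sub {x y : H} (hx : D.SupportedIn K x) (hy : D.SupportedIn K y) :
    D.SupportedIn K (x - y) := fun f hf => by rw [map_sub, hx f hf, hy f hf, sub_zero]

lemma supp_smul (c : ℂ) {x : H} (hx : D.SupportedIn K x) :
    D.SupportedIn K (c • x) := fun f hf => by rw [map_smul, hx f hf, smul_zero]

lemma supp_apply (g : ℝ →ᵇ ℂ) {x : H} (hx : D.SupportedIn K x) :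
    D.SupportedIn K (D.apply g x) := fun f hf => by
  rw [← apply_mul_apply, mul_comm, apply_mul_apply, hx f hf, map_zero]

lemma supp_wave (t : ℝ) {x : H} (hx : D.SupportedIn K x) : D.SupportedIn K (D.wave t x) :=
  supp_apply _ hx

lemma supp_of_vanish {k : ℝ →ᵇ ℂ} (hk : ∀ u, u ∉ K → k u = 0) (x : H) :
    D.SupportedIn K (D.apply k x) := fun f hf => by
  have : f * k = 0 := by
    ext u
    by_cases hu : u ∈ K
    · simp [hf u hu]
    · simp [hk u hu]
  rw [← apply_mul_apply, this, map_zero]; rfl

lemma supp_norm_le {a b : ℝ} (hab : a ≤ b) {x : H} (hx : D.SupportedIn (Set.Icc a b) x)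
    (f : ℝ →ᵇ ℂ) {B : ℝ} (hB : ∀ u ∈ Set.Icc a b, ‖f u‖ ≤ B) : ‖D.apply f x‖ ≤ B * ‖x‖ := by
  have hB0 : 0 ≤ B := (norm_nonneg _).trans (hB a ⟨le_rfl, hab⟩)
  let p : C(ℝ, ℝ) := ⟨fun u => (Set.projIcc a b hab u : ℝ),
    continuous_subtype_val.comp (continuous_projIcc)⟩
  let g : ℝ →ᵇ ℂ := f.compContinuous p
  have hg : ‖g‖ ≤ B := (BoundedContinuousFunction.norm_le hB0).2 fun u =>
    hB _ (Set.projIcc a b hab u).2
  have h1 : D.apply f x = D.apply g x := supp_congr hx fun u hu => by
    change f u = f (Set.projIcc a b hab u : ℝ)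
    rw [Set.projIcc_of_mem hab hu]
  rw [h1]
  exact (norm_apply_apply_le _ _ _).trans (by gcongr)

end Supported

/-- Integrating the unitary group against an integrable weight gives the calculus of the
Fourier integral of the weight. -/
lemma integral_wave (D : LineCalculus H) {g : ℝ → ℂ} (hg : Integrable g) (c : ℝ) (k : ℝ →ᵇ ℂ)
    (hk : ∀ u, k u = ∫ t, g t * character (c * t) u) (x : H) :
    ∫ t, g t • D.wave (c * t) x = D.apply k x := by
  have hint : ∀ y : H, Integrable fun t => g t • D.wave (c * t) y := fun y => by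
    refine Integrable.mono' (hg.norm.mul_const ‖y‖) ?_ (Eventually.of_forall fun t => ?_)
    · exact hg.1.smul ((continuous_wave D y).comp (by fun_prop)).aestronglyMeasurable
    · rw [norm_smul, norm_wave]
  -- the case of a vector in the range of a compactly supported cut-off
  have key : ∀ χ : ℝ →ᵇ ℂ, HasCompactSupport (χ : ℝ → ℂ) →
      ∫ t, g t • D.wave (c * t) (D.apply χ x) = D.apply k (D.apply χ x) := by
    intro χ hχ
    obtain ⟨R, hR⟩ := hχ.isCompact.isBounded.subset_closedBall 0
    have hcont : Continuous fun s : ℝ => character s * χ := by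
      refine (LipschitzWith.of_dist_le_mul (K := ⟨|R| * ‖χ‖, by positivity⟩)
        fun s t => ?_).continuous
      rw [dist_eq_norm, ← sub_mul]
      change _ ≤ |R| * ‖χ‖ * dist s t
      refine (BoundedContinuousFunction.norm_le (by positivity)).2 fun u => ?_
      rw [BoundedContinuousFunction.mul_apply, norm_mul, BoundedContinuousFunction.sub_apply]
      by_cases hu : χ u = 0
      · rw [hu, norm_zero, mul_zero]; positivity
      · have h4 := hR (subset_tsupport _ hu)
        rw [Metric.mem_closedBall, dist_zero_right, Real.norm_eq_abs] at h4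
        have h5 : |u| ≤ |R| := h4.trans (le_abs_self R)
        calc _ ≤ (|s - t| * |R|) * ‖χ‖ :=
              mul_le_mul ((norm_character_sub_le s t u).trans (by gcongr))
                (χ.norm_coe_le_norm u) (norm_nonneg _) (by positivity)
          _ = _ := by rw [Real.dist_eq]; ring
    have hF : Integrable fun t => g t • (character (c * t) * χ) := by
      refine Integrable.mono' (hg.norm.mul_const ‖χ‖) ?_ (Eventually.of_forall fun t => ?_)
      · exact hg.1.smul (hcont.comp (by fun_prop)).aestronglyMeasurable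
      · rw [norm_smul]
        gcongr
        exact (norm_mul_le _ _).trans (by
          simpa using mul_le_mul_of_nonneg_right (norm_character_le (c * t)) (norm_nonneg χ))
    have hval : ∫ t, g t • (character (c * t) * χ) = k * χ := by
      ext u
      have := (BoundedContinuousFunction.evalCLM ℂ u).integral_comp_comm hF
      simp only [BoundedContinuousFunction.evalCLM_apply] at this
      rw [← this, BoundedContinuousFunction.mul_apply, hk u, ← integral_mul_const]
      refine integral_congr_ae (Eventually.of_forall fun t => ?_)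
      simp [mul_assoc]
    let L : (ℝ →ᵇ ℂ) →L[ℂ] H := LinearMap.mkContinuous
      { toFun := fun f => D.apply f x
        map_add' := fun f f' => by rw [map_add]; rfl
        map_smul' := fun a f => by rw [map_smul]; rfl } ‖x‖
      (fun f => by rw [mul_comm]; exact norm_apply_apply_le D f x)
    have hL : ∀ f, L f = D.apply f x := fun f => rfl
    have h2 := L.integral_comp_comm hF
    rw [hval, hL, apply_mul_apply] at h2
    rw [← h2]
    refine integral_congr_ae (Eventually.of_forall fun t => ?_)
    simp only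
    rw [L.map_smul, hL, apply_mul_apply, wave]
  refine eq_of_norm_sub_le_zero (le_of_forall_pos_le_add fun ε hε => ?_)
  set G : ℝ := ∫ t, ‖g t‖ with hG
  have hG0 : 0 ≤ G := integral_nonneg fun t => norm_nonneg _
  obtain ⟨χ, h1, -, h3⟩ := exists_cutoff_approx D x (ε := ε / (G + ‖k‖ + 1)) (by positivity)
  have e1 : (∫ t, g t • D.wave (c * t) x) - D.apply k x =
      D.apply k (D.apply χ x - x) - ∫ t, g t • D.wave (c * t) (D.apply χ x - x) := by
    simp only [map_sub, smul_sub]
    rw [integral_sub (hint _) (hint _), key χ h1]; abel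
  have e2 : ‖∫ t, g t • D.wave (c * t) (D.apply χ x - x)‖ ≤ G * ‖D.apply χ x - x‖ := by
    rw [hG, ← integral_mul_const]
    refine norm_integral_le_of_norm_le (hg.norm.mul_const _) (Eventually.of_forall fun t => ?_)
    rw [norm_smul, norm_wave]
  rw [e1, zero_add]
  calc _ ≤ ‖k‖ * ‖D.apply χ x - x‖ + G * ‖D.apply χ x - x‖ :=
        (norm_sub_le _ _).trans (add_le_add (norm_apply_apply_le _ _ _) e2)
    _ = (G + ‖k‖) * ‖D.apply χ x - x‖ := by ring
    _ ≤ (G + ‖k‖ + 1) * (ε / (G + ‖k‖ + 1)) :=
        mul_le_mul (by linarith) h3 (norm_nonneg _) (by positivity)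
    _ = ε := by field_simp

end Crest.Agent.R84
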