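import Crest.Agent.R84.Tomita

/-! Ultrafilter means of bounded continuous functions and the ergodic average of the flow. -/

set_option autoImplicit false

namespace Crest.Agent.R84

open Crest.OpAlg Crest.OpAlg.LineCalculus MeasureTheory Filter
open scoped Topology BoundedContinuousFunction InnerProductSpace

section Mean

variable {E : Type*} [NormedAddCommGroup E] [NormedSpace ℝ E]

/-- The window average over `[-k, k]`, as an interval integral. -/
noncomputable def wm (f : ℝ → E) (k : ℕ) : E := (2 * (k : ℝ))⁻¹ • ∫ t in (-(k : ℝ))..(k : ℝ), f t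

/-- `m` is the limit along `ω` of the window averages of `f`. -/
def HasMean (ω : Ultrafilter ℕ) (f : ℝ → E) (m : E) : Prop := Tendsto (wm f) (ω : Filter ℕ) (𝓝 m)

lemma windowMean_eq (f : ℝ → ℝ) : windowMean f = wm f := by
  funext k
  have hk : -(k : ℝ) ≤ k := by linarith [Nat.cast_nonneg (α := ℝ) k]
  rw [windowMean, wm, setAverage_eq, intervalIntegral.integral_of_le hk,
    integral_Icc_eq_integral_Ioc, Real.volume_real_Icc_of_le hk]
  congr 2; ring

lemma norm_wm_le {f : ℝ → E} {B : ℝ} (hB : ∀ t, ‖f t‖ ≤ B) (k : ℕ) : ‖wm f k‖ ≤ B := by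
  have hB0 : 0 ≤ B := (norm_nonneg _).trans (hB 0)
  have h1 := intervalIntegral.norm_integral_le_of_norm_le_const (a := -(k : ℝ)) (b := k)
    (f := f) (C := B) (fun t _ => hB t)
  rw [wm, norm_smul, Real.norm_eq_abs, abs_of_nonneg (by positivity)]
  rcases Nat.eq_zero_or_pos k with rfl | hk
  · simpa using hB0
  · have hk' : (0 : ℝ) < k := by exact_mod_cast hk
    rw [inv_mul_le_iff₀ (by positivity)]
    refine h1.trans (le_of_eq ?_)
    rw [abs_of_nonneg (by linarith)]; ring

lemma exists_hasMean [ProperSpace E] (ω : Ultrafilter ℕ) {f : ℝ → E} {B : ℝ}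
    (hB : ∀ t, ‖f t‖ ≤ B) : ∃ m, ‖m‖ ≤ B ∧ HasMean ω f m := by
  obtain ⟨m, hm, h⟩ := (isCompact_closedBall (0 : E) B).ultrafilter_le_nhds (ω.map (wm f))
    (by
      rw [Ultrafilter.coe_map, le_principal_iff, mem_map]
      exact univ_mem' fun k => by simpa using norm_wm_le hB k)
  exact ⟨m, by simpa using hm, h⟩

variable {ω : Ultrafilter ℕ}

lemma HasMean.unique {f : ℝ → E} {m m' : E} (h : HasMean ω f m) (h' : HasMean ω f m') :
    m = m' := tendsto_nhds_unique h h'

lemma HasMean.congr {f g : ℝ → E} {m m' : E} (h : HasMean ω f m) (hfg : ∀ t, f t = g t)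
    (hm : m = m') : HasMean ω g m' := by
  rw [← funext hfg, ← hm]; exact h

lemma HasMean.add {f g : ℝ → E} {m m' : E} (h : HasMean ω f m) (h' : HasMean ω g m')
    (hf : Continuous f) (hg : Continuous g) : HasMean ω (fun t => f t + g t) (m + m') := by
  refine (Tendsto.add h h').congr fun k => ?_
  simp only [wm]
  rw [intervalIntegral.integral_add (hf.intervalIntegrable _ _) (hg.intervalIntegrable _ _),
    smul_add]

lemma HasMean.clm {F : Type*} [NormedAddCommGroup F] [NormedSpace ℝ F] [CompleteSpace E]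
    [CompleteSpace F] (L : E →L[ℝ] F) {f : ℝ → E} {m : E} (h : HasMean ω f m)
    (hf : Continuous f) : HasMean ω (fun t => L (f t)) (L m) := by
  refine ((L.continuous.tendsto m).comp h).congr fun k => ?_
  simp only [wm, Function.comp_apply, map_smul]
  rw [L.intervalIntegral_comp_comm (hf.intervalIntegrable _ _)]

lemma HasMean.const_mul_complex (c : ℂ) {f : ℝ → ℂ} {m : ℂ} (h : HasMean ω f m) :
    HasMean ω (fun t => c * f t) (c * m) := by
  refine (Tendsto.const_mul c h).congr fun k => ?_
  simp only [wm, intervalIntegral.integral_const_mul, mul_smul_comm]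

lemma HasMean.const_mul (c : ℝ) {f : ℝ → ℝ} {m : ℝ} (h : HasMean ω f m) :
    HasMean ω (fun t => c * f t) (c * m) := by
  refine (Tendsto.const_mul c h).congr fun k => ?_
  simp only [wm, intervalIntegral.integral_const_mul, mul_smul_comm]

lemma HasMean.re {f : ℝ → ℂ} {m : ℂ} (h : HasMean ω f m) (hf : Continuous f) :
    HasMean ω (fun t => (f t).re) m.re := h.clm Complex.reCLM hf

lemma HasMean.comp_neg {f : ℝ → E} {m : E} (h : HasMean ω f m) :
    HasMean ω (fun t => f (-t)) m := by
  refine Tendsto.congr (fun k => ?_) h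
  simp only [wm, intervalIntegral.integral_comp_neg, neg_neg]

lemma hasMean_const [CompleteSpace E] (hω : (ω : Filter ℕ) ≤ atTop) (c : E) :
    HasMean ω (fun _ => c) c := by
  refine tendsto_const_nhds.congr' (hω ?_)
  filter_upwards [eventually_gt_atTop 0] with k hk
  have hk' : (k : ℝ) ≠ 0 := by positivity
  simp only [wm, intervalIntegral.integral_const, smul_smul]
  rw [show (2 * (k : ℝ))⁻¹ * (k - -k) = 1 by field_simp; ring, one_smul]

lemma HasMean.comp_add (hω : (ω : Filter ℕ) ≤ atTop) {f : ℝ → E} {m : E} (h : HasMean ω f m)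
    (hf : Continuous f) {B : ℝ} (hB : ∀ t, ‖f t‖ ≤ B) (s : ℝ) :
    HasMean ω (fun t => f (s + t)) m := by
  have key : Tendsto (fun k => wm (fun t => f (s + t)) k - wm f k) atTop (𝓝 0) := by
    have h0 : Tendsto (fun k : ℕ => (2 * (k : ℝ))⁻¹ * (B * |s| + B * |s|)) atTop (𝓝 0) := by
      have : Tendsto (fun k : ℕ => (2 * (k : ℝ))⁻¹) atTop (𝓝 0) :=
        tendsto_inv_atTop_zero.comp (tendsto_natCast_atTop_atTop.const_mul_atTop two_pos)
      simpa using this.mul_const (B * |s| + B * |s|)
    refine squeeze_zero_norm (fun k => ?_) h0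
    simp only [wm, ← smul_sub, intervalIntegral.integral_comp_add_left]
    rw [norm_smul, Real.norm_eq_abs, abs_of_nonneg (by positivity)]
    gcongr
    rw [intervalIntegral.integral_interval_sub_interval_comm' (hf.intervalIntegrable _ _)
      (hf.intervalIntegrable _ _) (hf.intervalIntegrable _ _)]
    refine (norm_sub_le _ _).trans (add_le_add ?_ ?_)
    · simpa using intervalIntegral.norm_integral_le_of_norm_le_const (a := (k : ℝ)) (b := s + k)
        (f := f) (C := B) (fun t _ => hB t)
    · simpa using intervalIntegral.norm_integral_le_of_norm_le_const (a := -(k : ℝ))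
        (b := s + -k) (f := f) (C := B) (fun t _ => hB t)
  have := (key.mono_left hω).add h
  simpa [HasMean] using this

lemma HasMean.le_of_le {f g : ℝ → ℝ} {m m' : ℝ} (h : HasMean ω f m) (h' : HasMean ω g m')
    (hf : Continuous f) (hg : Continuous g) (hfg : ∀ t, f t ≤ g t) : m ≤ m' := by
  refine le_of_tendsto_of_tendsto' h h' fun k => ?_
  have hk : -(k : ℝ) ≤ k := by linarith [Nat.cast_nonneg (α := ℝ) k]
  simp only [wm, smul_eq_mul]
  exact mul_le_mul_of_nonneg_left (intervalIntegral.integral_mono hk (hf.intervalIntegrable _ _)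
    (hg.intervalIntegrable _ _) hfg) (by positivity)

lemma HasMean.exists_lt (hω : (ω : Filter ℕ) ≤ atTop) {f : ℝ → ℝ} {m c : ℝ} (h : HasMean ω f m)
    (hf : Continuous f) (hc : c < m) : ∃ t, c < f t := by
  by_contra hne
  push Not at hne
  exact absurd (h.le_of_le (hasMean_const hω c) hf continuous_const hne) (not_le.2 hc)

lemma hasMean_ultraMean (ω : Ultrafilter ℕ) {f : ℝ → ℝ} {B : ℝ} (hB : ∀ t, ‖f t‖ ≤ B) :
    HasMean ω f (ultraMean ω f) := by
  obtain ⟨m, -, hm⟩ := exists_hasMean ω hB
  have : ultraMean ω f = m := by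
    rw [ultraMean, windowMean_eq]; exact Tendsto.limUnder_eq hm
  rw [this]; exact hm

end Mean

variable {H : Type*} [NormedAddCommGroup H] [InnerProductSpace ℂ H] [CompleteSpace H]

/-- Weak means of bounded continuous vector-valued functions. -/
lemma exists_weak_mean (ω : Ultrafilter ℕ) {F : ℝ → H} (hF : Continuous F) {B : ℝ}
    (hB : ∀ t, ‖F t‖ ≤ B) :
    ∃ w : H, ‖w‖ ≤ B ∧ ∀ y, HasMean ω (fun t => ⟪F t, y⟫_ℂ) ⟪w, y⟫_ℂ := by
  have hB0 : 0 ≤ B := (norm_nonneg _).trans (hB 0)
  have hbd : ∀ y t, ‖⟪F t, y⟫_ℂ‖ ≤ B * ‖y‖ := fun y t =>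
    (norm_inner_le_norm _ _).trans (by gcongr; exact hB t)
  choose m hm1 hm2 using fun y => exists_hasMean ω (hbd y)
  let L : H →ₗ[ℂ] ℂ :=
    { toFun := m
      map_add' := fun y z => (hm2 (y + z)).unique
        (((hm2 y).add (hm2 z) (by fun_prop) (by fun_prop)).congr
          (fun t => (inner_add_right _ _ _).symm) rfl)
      map_smul' := fun c y => (hm2 (c • y)).unique
        (((hm2 y).const_mul_complex c).congr (fun t => (inner_smul_right _ _ _).symm) rfl) }
  let L' : H →L[ℂ] ℂ := L.mkContinuous B hm1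
  refine ⟨(InnerProductSpace.toDual ℂ H).symm L', ?_, fun y => ?_⟩
  · rw [LinearIsometryEquiv.norm_map]
    exact L.mkContinuous_norm_le hB0 hm1
  · rw [InnerProductSpace.toDual_symm_apply]
    exact hm2 y

/-- Ergodicity: the mean of the flow of an element of the algebra is the scalar given by the
state. -/
lemma hasMean_flow (S : ModularDatum H) (herg : S.Ergodic) {ω : Ultrafilter ℕ}
    (hω : (ω : Filter ℕ) ≤ atTop) {a : H →L[ℂ] H} (ha : a ∈ S.M) (z y : H) :
    HasMean ω (fun t => ⟪S.flow t a z, y⟫_ℂ) (⟪a S.vac, S.vac⟫_ℂ * ⟪z, y⟫_ℂ) := by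
  choose w hw1 hw2 using fun z => exists_weak_mean ω (continuous_flow S a z)
    (fun t => norm_flow_apply_le S t a z)
  have hc : ∀ z y : H, Continuous fun t => ⟪S.flow t a z, y⟫_ℂ := fun z y =>
    (continuous_flow S a z).inner continuous_const
  let L : H →ₗ[ℂ] H :=
    { toFun := w
      map_add' := fun z z' => ext_inner_right ℂ fun y => (hw2 (z + z') y).unique
        (((hw2 z y).add (hw2 z' y) (hc _ _) (hc _ _)).congr
          (fun t => by rw [map_add, inner_add_left]) (inner_add_left _ _ _).symm)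
      map_smul' := fun c z => ext_inner_right ℂ fun y => (hw2 (c • z) y).unique
        (((hw2 z y).const_mul_complex (starRingEnd ℂ c)).congr
          (fun t => by rw [map_smul, inner_smul_left]) (inner_smul_left _ _ _).symm) }
  let b : H →L[ℂ] H := L.mkContinuous ‖a‖ hw1
  have hb : ∀ z y, HasMean ω (fun t => ⟪S.flow t a z, y⟫_ℂ) ⟪b z, y⟫_ℂ := hw2
  have hbM : b ∈ S.M := mem_of_commute _ fun u hu => by
    ext z
    refine ext_inner_right ℂ fun y => ?_
    simp only [mul_apply_eq_comp]
    rw [← ContinuousLinearMap.adjoint_inner_right]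
    refine (hb z _).unique ((hb (u z) y).congr (fun t => ?_) rfl)
    rw [ContinuousLinearMap.adjoint_inner_right, commute_of_mem S.M (flow_mem S t ha) hu]
  have hbinv : ∀ s, S.flow s b = b := fun s => by
    ext z
    refine ext_inner_right ℂ fun y => ?_
    rw [flow_apply, inner_wave_left]
    refine (hb _ _).unique (((hb z y).comp_add hω (hc z y) (B := ‖a‖ * ‖z‖ * ‖y‖)
      (fun t => (norm_inner_le_norm _ _).trans
        (by gcongr; exact norm_flow_apply_le S t a z)) s).congr (fun t => ?_) rfl)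
    rw [← inner_wave_left, flow_apply, flow_apply, ← wave_add_apply, ← wave_add_apply, neg_add,
      add_comm (-s)]
  obtain ⟨c, hcb⟩ := herg b hbM hbinv
  have hvv : ⟪S.vac, S.vac⟫_ℂ = 1 := by
    rw [inner_self_eq_norm_sq_to_K, S.norm_vac]; simp
  have h1 : ⟪b S.vac, S.vac⟫_ℂ = ⟪a S.vac, S.vac⟫_ℂ :=
    (hb _ _).unique ((hasMean_const hω _).congr
      (fun t => by rw [flow_vac, inner_wave_left, wave_vac]) rfl)
  refine (hb z y).congr (fun _ => rfl) ?_
  rw [← h1, hcb]
  simp only [smul_apply, one_apply_eq_self, inner_smul_left, hvv, mul_one]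

end Crest.Agent.R84
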