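import Crest.Agent.R84.Tomita

/-! Spectral smoothing inside the algebra, with a norm bound independent of the band. -/

set_option autoImplicit false

namespace Crest.Agent.R84

open Crest.OpAlg Crest.OpAlg.LineCalculus MeasureTheory Filter
open scoped Topology BoundedContinuousFunction InnerProductSpace FourierTransform ContDiff

variable {H : Type*} [NormedAddCommGroup H] [InnerProductSpace ℂ H] [CompleteSpace H]

lemma exists_smooth (S : ModularDatum H) {a : H →L[ℂ] H} (ha : a ∈ S.M) {g : ℝ → ℂ}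
    (hg : Integrable g) (c : ℝ) (k : ℝ →ᵇ ℂ)
    (hk : ∀ u, k u = ∫ t, g t * character (c * t) u) :
    ∃ b ∈ S.M, ‖b‖ ≤ (∫ t, ‖g t‖) * ‖a‖ ∧ b S.vac = S.D.apply k (a S.vac) := by
  have hint : ∀ y : H, Integrable fun t => g t • S.flow (c * t) a y := fun y => by
    refine Integrable.mono' (hg.norm.mul_const (‖a‖ * ‖y‖)) ?_ (Eventually.of_forall fun t => ?_)
    · exact hg.1.smul ((continuous_flow S a y).comp (by fun_prop)).aestronglyMeasurable
    · rw [norm_smul]
      exact mul_le_mul_of_nonneg_left (norm_flow_apply_le S _ a y) (norm_nonneg _)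
  have hG0 : 0 ≤ ∫ t, ‖g t‖ := integral_nonneg fun t => norm_nonneg _
  let L : H →ₗ[ℂ] H :=
    { toFun := fun y => ∫ t, g t • S.flow (c * t) a y
      map_add' := fun y z => by
        simp only [map_add, smul_add]
        exact integral_add (hint y) (hint z)
      map_smul' := fun r y => by
        simp only [map_smul, RingHom.id_apply]
        rw [← integral_smul]
        exact integral_congr_ae (Eventually.of_forall fun t => smul_comm _ _ _) }
  have hL : ∀ y, ‖L y‖ ≤ ((∫ t, ‖g t‖) * ‖a‖) * ‖y‖ := fun y => by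
    rw [mul_assoc, ← integral_mul_const]
    refine norm_integral_le_of_norm_le (hg.norm.mul_const _) (Eventually.of_forall fun t => ?_)
    rw [norm_smul]
    exact mul_le_mul_of_nonneg_left (norm_flow_apply_le S _ a y) (norm_nonneg _)
  have hb : ∀ y, L.mkContinuous _ hL y = ∫ t, g t • S.flow (c * t) a y := fun y => rfl
  refine ⟨L.mkContinuous _ hL, mem_of_commute _ fun z hz => ?_,
    L.mkContinuous_norm_le (by positivity) hL, ?_⟩
  · ext y
    simp only [mul_apply_eq_comp, hb]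
    rw [← z.integral_comp_comm (hint y)]
    refine integral_congr_ae (Eventually.of_forall fun t => ?_)
    simp only [map_smul]
    rw [commute_of_mem S.M (flow_mem S _ ha) hz]
  · rw [hb, ← integral_wave S.D hg c k hk]
    simp only [flow_vac]

/-- A fixed bump and its Fourier representation. -/
lemma exists_bump : ∃ (k : ℝ → ℂ) (g : ℝ → ℂ), Continuous k ∧ Integrable g ∧
    (∀ u, |u| ≤ 1 → k u = 1) ∧ (∀ u, 2 ≤ |u| → k u = 0) ∧ (∀ u, ‖k u‖ ≤ 1) ∧
    ∀ u, k u = ∫ t, g t * Complex.exp (Complex.I * ((2 * Real.pi * t * u : ℝ) : ℂ)) := by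
  let b : ContDiffBump (0 : ℝ) := ⟨1, 2, one_pos, one_lt_two⟩
  let k : ℝ → ℂ := fun u => ((b u : ℝ) : ℂ)
  have hk1 : ContDiff ℝ ∞ k := Complex.ofRealCLM.contDiff.comp b.contDiff
  have hk2 : HasCompactSupport k :=
    b.hasCompactSupport.comp_left (g := fun r : ℝ => (r : ℂ)) (by simp)
  let f : SchwartzMap ℝ ℂ := hk2.toSchwartzMap hk1
  have hf : (f : ℝ → ℂ) = k := rfl
  have hint : Integrable (𝓕 k) := by
    rw [← hf, ← SchwartzMap.fourier_coe]; exact (𝓕 f).integrable
  have hki : Integrable k := by rw [← hf]; exact f.integrable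
  refine ⟨k, 𝓕 k, hk1.continuous, hint, fun u hu => ?_, fun u hu => ?_, fun u => ?_, fun u => ?_⟩
  · have : b u = 1 := b.one_of_mem_closedBall (by simpa [b] using hu)
    simp [k, this]
  · have : b u = 0 := b.zero_of_le_dist (by simpa [b] using hu)
    simp [k, this]
  · simp only [k, Complex.norm_real, Real.norm_eq_abs, abs_of_nonneg b.nonneg]
    exact b.le_one
  · conv_lhs => rw [← hk1.continuous.fourierInv_fourier_eq hki hint, Real.fourierInv_eq']
    refine integral_congr_ae (Eventually.of_forall fun t => ?_)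
    simp only [smul_eq_mul]
    rw [mul_comm]
    congr 2
    simp only [RCLike.inner_apply, conj_trivial]
    push_cast; ring

/-- Band cut-off inside the algebra with an absolute norm bound. -/
lemma exists_band : ∃ C₀ : ℝ, 0 ≤ C₀ ∧ ∀ (s δ : ℝ), 0 < δ → ∃ k : ℝ →ᵇ ℂ, ‖k‖ ≤ 1 ∧
    (∀ u ∈ Set.Icc (s - δ) (s + δ), k u = 1) ∧
    (∀ u, u ∉ Set.Icc (s - 2 * δ) (s + 2 * δ) → k u = 0) ∧
    ∃ (g : ℝ → ℂ) (c : ℝ), Integrable g ∧ ∫ t, ‖g t‖ = C₀ ∧
      ∀ u, k u = ∫ t, g t * character (c * t) u := by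
  obtain ⟨k, g, hk, hg, h1, h2, h3, h4⟩ := exists_bump
  refine ⟨∫ t, ‖g t‖, integral_nonneg fun t => norm_nonneg _, fun s δ hδ => ?_⟩
  have hc : Continuous fun u => k ((u - s) / δ) := hk.comp (by fun_prop)
  refine ⟨BoundedContinuousFunction.ofNormedAddCommGroup _ hc 1 (fun u => h3 _),
    BoundedContinuousFunction.norm_ofNormedAddCommGroup_le _ zero_le_one _, fun u hu => ?_,
    fun u hu => ?_, fun t => g t * character (2 * Real.pi / δ * t) (-s), 2 * Real.pi / δ,
    ?_, ?_, fun u => ?_⟩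
  · refine h1 _ ?_
    rw [abs_div, abs_of_pos hδ, div_le_one hδ, abs_le]
    constructor <;> linarith [hu.1, hu.2]
  · refine h2 _ ?_
    rw [abs_div, abs_of_pos hδ, le_div_iff₀ hδ]
    by_contra hlt
    rw [not_le, abs_lt] at hlt
    exact hu ⟨by linarith [hlt.1], by linarith [hlt.2]⟩
  · refine hg.mul_bdd (c := 1) ?_ (Eventually.of_forall fun t => (norm_character_apply _ _).le)
    simp only [character_apply]
    exact Continuous.aestronglyMeasurable (by fun_prop)
  · simp only [norm_mul, norm_character_apply, mul_one]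
  · change k ((u - s) / δ) = _
    rw [h4]
    refine integral_congr_ae (Eventually.of_forall fun t => ?_)
    simp only [character_apply, mul_assoc (g t), ← Complex.exp_add]
    congr 2
    have : (δ : ℂ) ≠ 0 := by exact_mod_cast hδ.ne'
    push_cast
    field_simp
    ring

/-- The form in which smoothing is used: an element `a` of the algebra is replaced by one whose
vector lies in the doubled band, which is no further from any vector of the band, and whose
operator norm is controlled by an absolute constant. -/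
lemma exists_band_approx : ∃ C₀ : ℝ, 0 ≤ C₀ ∧ ∀ (S : ModularDatum H) (s δ : ℝ), 0 < δ →
    ∀ a ∈ S.M, ∀ h : H, S.D.SupportedIn (Set.Icc (s - δ) (s + δ)) h →
      ∃ b ∈ S.M, ‖b‖ ≤ C₀ * ‖a‖ ∧ S.D.SupportedIn (Set.Icc (s - 2 * δ) (s + 2 * δ)) (b S.vac) ∧
        ‖b S.vac - h‖ ≤ ‖a S.vac - h‖ := by
  obtain ⟨C₀, hC₀, hC⟩ := exists_band
  refine ⟨C₀, hC₀, fun S s δ hδ a ha h hh => ?_⟩
  obtain ⟨k, hk1, hk2, hk3, g, c, hg, hgC, hgk⟩ := hC s δ hδ
  obtain ⟨b, hb, hb1, hb2⟩ := exists_smooth S ha hg c k hgk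
  refine ⟨b, hb, hgC ▸ hb1, hb2 ▸ supp_of_vanish hk3 _, ?_⟩
  have h1 : S.D.apply k h = h := by
    rw [supp_congr hh (g := 1) (fun u hu => by simp [hk2 u hu]), apply_one_apply]
  calc ‖b S.vac - h‖ = ‖S.D.apply k (a S.vac - h)‖ := by rw [map_sub, h1, hb2]
    _ ≤ ‖k‖ * ‖a S.vac - h‖ := norm_apply_apply_le _ _ _
    _ ≤ 1 * ‖a S.vac - h‖ := by gcongr
    _ = _ := one_mul _

/-- Truncation: an element of the algebra is replaced by one of norm at most `R`. -/
lemma exists_truncation (M : VonNeumannAlgebra H) {v : H →L[ℂ] H} (hv : v ∈ M) {R : ℝ}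
    (hR : 0 < R) (ξ : H) : ∃ w ∈ M, ‖w‖ ≤ R ∧ ‖w ξ - v ξ‖ ≤ ‖star v (v ξ)‖ / R := by
  set A : H →L[ℂ] H := 1 + ((R ^ 2)⁻¹ : ℂ) • (star v * v) with hA
  have hAmem : A ∈ M := add_mem (one_mem _) (smul_mem_vN _ _ (mul_mem (star_mem hv) hv))
  have hAy : ∀ y, A y = y + ((R ^ 2)⁻¹ : ℂ) • star v (v y) := fun y => rfl
  have hAinner : ∀ y, ⟪A y, y⟫_ℂ = ((‖y‖ ^ 2 + (R ^ 2)⁻¹ * ‖v y‖ ^ 2 : ℝ) : ℂ) := fun y => by
    rw [hAy, inner_add_left, inner_smul_left, ContinuousLinearMap.star_eq_adjoint,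
      ContinuousLinearMap.adjoint_inner_left, inner_self_eq_norm_sq_to_K,
      inner_self_eq_norm_sq_to_K]
    simp
  have hunit : IsUnit A := by
    refine ContinuousLinearMap.isUnit_of_forall_le_norm_inner_map A (c := 1) one_pos fun y => ?_
    rw [hAinner, Complex.norm_real, Real.norm_eq_abs, abs_of_nonneg (by positivity)]
    have : 0 ≤ (R ^ 2)⁻¹ * ‖v y‖ ^ 2 := by positivity
    simpa using this
  obtain ⟨B, hB⟩ := hunit
  set W : H →L[ℂ] H := ↑B⁻¹ with hW
  have hAW : A * W = 1 := by rw [← hB, hW]; exact B.mul_inv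
  have hWA : W * A = 1 := by rw [← hB, hW]; exact B.inv_mul
  have hWmem : W ∈ M := mem_of_commute _ fun z hz => by
    have h1 : A * z = z * A := VonNeumannAlgebra.mem_commutant_iff.1 hz A hAmem
    calc z * W = (W * A) * z * W := by rw [hWA, one_mul]
      _ = W * (z * A) * W := by rw [← h1]; simp only [mul_assoc]
      _ = W * z * (A * W) := by simp only [mul_assoc]
      _ = W * z := by rw [hAW, mul_one]
  have hnorm : ‖v * W‖ ≤ R := by
    refine ContinuousLinearMap.opNorm_le_bound _ hR.le fun y => ?_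
    have h1 : A (W y) = y := congrArg (fun f : H →L[ℂ] H => f y) hAW
    have h2 := hAinner (W y)
    rw [h1] at h2
    have h3 : ‖W y‖ ^ 2 + (R ^ 2)⁻¹ * ‖v (W y)‖ ^ 2 ≤ ‖y‖ * ‖W y‖ := by
      have h4 := norm_inner_le_norm (𝕜 := ℂ) y (W y)
      rw [h2, Complex.norm_real, Real.norm_eq_abs] at h4
      exact (le_abs_self _).trans h4
    have h5 : (R ^ 2)⁻¹ * ‖v (W y)‖ ^ 2 ≤ ‖y‖ ^ 2 := by
      nlinarith [sq_nonneg (‖y‖ - ‖W y‖), sq_nonneg ‖y‖, sq_nonneg ‖W y‖]
    rw [inv_mul_le_iff₀ (by positivity)] at h5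
    have h6 : ‖v (W y)‖ ^ 2 ≤ (R * ‖y‖) ^ 2 := by rw [mul_pow]; exact h5
    exact (sq_le_sq₀ (norm_nonneg _) (by positivity)).1 h6
  refine ⟨v * W, mul_mem hv hWmem, hnorm, ?_⟩
  have h1 : W (A ξ) = ξ := congrArg (fun f : H →L[ℂ] H => f ξ) hWA
  have h2 : (v * W) ξ - v ξ = -(((R ^ 2)⁻¹ : ℂ) • (v * W) (star v (v ξ))) := by
    have h3 := congrArg v h1
    rw [hAy, map_add, map_smul, map_add, map_smul] at h3
    simp only [mul_apply_eq_comp]
    rw [eq_neg_iff_add_eq_zero, sub_add_eq_add_sub, h3, sub_self]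
  rw [h2, norm_neg, norm_smul]
  have h3 : ‖((R ^ 2)⁻¹ : ℂ)‖ = (R ^ 2)⁻¹ := by
    rw [norm_inv, norm_pow, Complex.norm_real, Real.norm_eq_abs, sq_abs]
  rw [h3]
  calc _ ≤ (R ^ 2)⁻¹ * (R * ‖star v (v ξ)‖) := by
        gcongr
        exact ((v * W).le_opNorm _).trans (by gcongr)
    _ = _ := by field_simp

end Crest.Agent.R84
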