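import Crest.Agent.R84.Mean
import Crest.Agent.R84.Smooth

/-! Spreading an element along the ergodic flow with signs, to control its fourth moment. -/

set_option autoImplicit false

namespace Crest.Agent.R84

open Crest.OpAlg Crest.OpAlg.LineCalculus MeasureTheory Filter
open scoped Topology BoundedContinuousFunction InnerProductSpace

variable {H : Type*} [NormedAddCommGroup H] [InnerProductSpace ℂ H] [CompleteSpace H]

lemma inner_star_mul (a : H →L[ℂ] H) (x : H) :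
    ⟪(star a * a) x, x⟫_ℂ = ((‖a x‖ ^ 2 : ℝ) : ℂ) := by
  rw [mul_apply_eq_comp, ContinuousLinearMap.star_eq_adjoint,
    ContinuousLinearMap.adjoint_inner_left, inner_self_eq_norm_sq_to_K]
  simp

lemma inner_mul_star (a : H →L[ℂ] H) (x : H) :
    ⟪(a * star a) x, x⟫_ℂ = ((‖star a x‖ ^ 2 : ℝ) : ℂ) := by
  simpa using inner_star_mul (star a) x

omit [CompleteSpace H] in
lemma inner_self_ofReal (x : H) : ⟪x, x⟫_ℂ = ((‖x‖ ^ 2 : ℝ) : ℂ) := by
  rw [inner_self_eq_norm_sq_to_K]; simp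

omit [CompleteSpace H] in
lemma par_law (x y : H) : ‖x + y‖ ^ 2 + ‖x - y‖ ^ 2 = 2 * ‖x‖ ^ 2 + 2 * ‖y‖ ^ 2 := by
  have := parallelogram_law_with_norm ℂ x y
  nlinarith [this]

/-- The potential `a ‖T v ξ‖² - ‖v⋆ v ξ‖² - b ‖v ξ‖²`. -/
noncomputable def pot (T : H →L[ℂ] H) (ξ : H) (a b : ℝ) (v : H →L[ℂ] H) : ℝ :=
  a * ‖T (v ξ)‖ ^ 2 - ‖star v (v ξ)‖ ^ 2 - b * ‖v ξ‖ ^ 2

lemma pot_add_pot (T : H →L[ℂ] H) (ξ : H) (a b : ℝ) (v y : H →L[ℂ] H) :
    2 * (pot T ξ a b v + pot T ξ a b y - 2 * (⟪star y (y ξ), star v (v ξ)⟫_ℂ).re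
      - 2 * ‖star v (y ξ)‖ ^ 2 - 2 * ‖star y (v ξ)‖ ^ 2) ≤
      pot T ξ a b (v + y) + pot T ξ a b (v - y) := by
  have e1 : star (v + y) ((v + y) ξ) =
      (star y (y ξ) + star v (v ξ)) + (star v (y ξ) + star y (v ξ)) := by
    simp only [star_add, add_apply, map_add]; abel
  have e2 : star (v - y) ((v - y) ξ) =
      (star y (y ξ) + star v (v ξ)) - (star v (y ξ) + star y (v ξ)) := by
    simp only [star_sub, sub_apply, map_sub]; abel
  have h1 := par_law (star y (y ξ) + star v (v ξ)) (star v (y ξ) + star y (v ξ))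
  have h2 := par_law (T (v ξ)) (T (y ξ))
  have h3 := par_law (v ξ) (y ξ)
  have h4 := @norm_add_sq ℂ _ _ _ _ (star y (y ξ)) (star v (v ξ))
  have h5 := par_law (star v (y ξ)) (star y (v ξ))
  have h6 := sq_nonneg ‖star v (y ξ) - star y (v ξ)‖
  simp only [RCLike.re_to_complex] at h4
  simp only [pot, e1, e2]
  simp only [add_apply, sub_apply, map_add, map_sub]
  have h2' := congrArg (a * ·) h2
  have h3' := congrArg (b * ·) h3
  linarith

section Step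

variable (S : ModularDatum H) (herg : S.Ergodic) {ω : Ultrafilter ℕ}
  (hω : (ω : Filter ℕ) ≤ atTop) (T : H →L[ℂ] H) {α β : ℝ} (hαβ : α ≤ β)
  {x : H →L[ℂ] H} (hx : x ∈ S.M) (hxs : S.D.SupportedIn (Set.Icc α β) (x S.vac)) {q : ℝ}
  (hq : HasMean ω (fun t => ‖T (S.D.wave t (x S.vac))‖ ^ 2) q)

include hαβ in
lemma sq_star_le {v : H →L[ℂ] H} (hv : v ∈ S.M)
    (hvs : S.D.SupportedIn (Set.Icc α β) (v S.vac)) :
    ‖star v S.vac‖ ^ 2 ≤ Real.exp β * ‖v S.vac‖ ^ 2 := by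
  have h := norm_star_vac_le S hv hαβ hvs
  calc _ ≤ (Real.exp (β / 2) * ‖v S.vac‖) ^ 2 := by gcongr
    _ = _ := by rw [mul_pow, ← Real.exp_nat_mul]; congr 2; push_cast; ring

include herg hω hαβ hx hxs hq in
lemma exists_step (a b : ℝ) {v : H →L[ℂ] H} (hv : v ∈ S.M)
    (hvs : S.D.SupportedIn (Set.Icc α β) (v S.vac)) :
    ∃ w ∈ S.M, S.D.SupportedIn (Set.Icc α β) (w S.vac) ∧
      pot T S.vac a (b + (2 + 4 * Real.exp β) * ‖x S.vac‖ ^ 2) v + a * q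
        - (‖star x (x S.vac)‖ ^ 2 + 1) - b * ‖x S.vac‖ ^ 2 ≤ pot T S.vac a b w := by
  have hc : ∀ (a : H →L[ℂ] H) (z y : H), Continuous fun t => ⟪S.flow t a z, y⟫_ℂ :=
    fun a z y => (continuous_flow S a z).inner continuous_const
  -- the three ergodic means
  have m1 := (hasMean_flow S herg hω (mul_mem (star_mem hx) hx) S.vac (star v (v S.vac))).re
    (hc _ _ _)
  have m2 := ((hasMean_flow S herg hω (mul_mem hv (star_mem hv)) (x S.vac) (x S.vac)).re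
    (hc _ _ _)).comp_neg
  have m3 := (hasMean_flow S herg hω (mul_mem hx (star_mem hx)) (v S.vac) (v S.vac)).re
    (hc _ _ _)
  have e1 : ⟪S.vac, star v (v S.vac)⟫_ℂ = ((‖v S.vac‖ ^ 2 : ℝ) : ℂ) := by
    rw [ContinuousLinearMap.star_eq_adjoint, ContinuousLinearMap.adjoint_inner_right,
      inner_self_ofReal]
  rw [inner_star_mul, e1, ← Complex.ofReal_mul, Complex.ofReal_re] at m1
  rw [inner_mul_star, inner_self_ofReal, ← Complex.ofReal_mul, Complex.ofReal_re] at m2 m3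
  have c0 : Continuous fun t => ‖T (S.D.wave t (x S.vac))‖ ^ 2 :=
    ((T.continuous.comp (continuous_wave S.D _)).norm).pow 2
  have c1 := Complex.continuous_re.comp (hc (star x * x) S.vac (star v (v S.vac)))
  have c2 := (Complex.continuous_re.comp (hc (v * star v) (x S.vac) (x S.vac))).comp
    continuous_neg
  have c3 := Complex.continuous_re.comp (hc (x * star x) (v S.vac) (v S.vac))
  have d0 := continuous_const (y := a).mul c0
  have d1 := continuous_const (y := (-2 : ℝ)).mul c1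
  have d2 := continuous_const (y := (-2 : ℝ)).mul c2
  have d3 := continuous_const (y := (-2 : ℝ)).mul c3
  have mm := (((hq.const_mul a).add (m1.const_mul (-2)) d0 d1).add (m2.const_mul (-2))
    (d0.add d1) d2).add (m3.const_mul (-2)) ((d0.add d1).add d2) d3
  obtain ⟨t, ht⟩ := mm.exists_lt hω (((d0.add d1).add d2).add d3) (sub_one_lt _)
  set y := S.flow t x with hy
  have hyM : y ∈ S.M := flow_mem S t hx
  have hyv : y S.vac = S.D.wave t (x S.vac) := flow_vac S t x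
  have hys : S.D.SupportedIn (Set.Icc α β) (y S.vac) := hyv ▸ supp_wave t hxs
  have f1 : S.flow t (star x * x) S.vac = star y (y S.vac) := by
    rw [flow_mul, hy, star_flow]; rfl
  have f2 : (⟪S.flow (-t) (v * star v) (x S.vac), x S.vac⟫_ℂ).re = ‖star v (y S.vac)‖ ^ 2 := by
    rw [flow_apply, inner_wave_left, neg_neg, ← hyv, inner_mul_star, Complex.ofReal_re]
  have f3 : (⟪S.flow t (x * star x) (v S.vac), v S.vac⟫_ℂ).re = ‖star y (v S.vac)‖ ^ 2 := by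
    rw [flow_mul, ← star_flow, ← hy, inner_mul_star, Complex.ofReal_re]
  have f4 : ‖star y (y S.vac)‖ = ‖star x (x S.vac)‖ := by
    rw [← f1, flow_vac, norm_wave]; rfl
  have f5 : ‖y S.vac‖ = ‖x S.vac‖ := by rw [hyv, norm_wave]
  rw [f1, f2, f3, ← hyv] at ht
  have g1 := sq_star_le S hαβ hv hvs
  have g2 := sq_star_le S hαβ hx hxs
  have g3 : ‖star v S.vac‖ ^ 2 * ‖x S.vac‖ ^ 2 ≤ Real.exp β * ‖v S.vac‖ ^ 2 * ‖x S.vac‖ ^ 2 := by
    gcongr
  have g4 : ‖star x S.vac‖ ^ 2 * ‖v S.vac‖ ^ 2 ≤ Real.exp β * ‖x S.vac‖ ^ 2 * ‖v S.vac‖ ^ 2 := by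
    gcongr
  have hp := pot_add_pot T S.vac a b v y
  have key : 2 * (pot T S.vac a (b + (2 + 4 * Real.exp β) * ‖x S.vac‖ ^ 2) v + a * q
        - (‖star x (x S.vac)‖ ^ 2 + 1) - b * ‖x S.vac‖ ^ 2) ≤
      pot T S.vac a b (v + y) + pot T S.vac a b (v - y) := by
    refine le_trans ?_ hp
    simp only [pot, f4, f5]
    linarith
  rcases le_total (pot T S.vac a b (v + y)) (pot T S.vac a b (v - y)) with h | h
  · exact ⟨v - y, sub_mem hv hyM, supp_sub hvs hys, by linarith⟩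
  · exact ⟨v + y, add_mem hv hyM, supp_add hvs hys, by linarith⟩

include herg hω hαβ hx hxs hq in
lemma exists_iter (a : ℝ) (N : ℕ) : ∀ b : ℝ, ∃ w ∈ S.M, S.D.SupportedIn (Set.Icc α β) (w S.vac) ∧
    N * (a * q) - N * (‖star x (x S.vac)‖ ^ 2 + 1) - N * (b * ‖x S.vac‖ ^ 2)
      - N ^ 2 * ((2 + 4 * Real.exp β) * ‖x S.vac‖ ^ 2 * ‖x S.vac‖ ^ 2) ≤ pot T S.vac a b w := by
  induction N with
  | zero => exact fun b => ⟨0, zero_mem _, supp_zero, by simp [pot]⟩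
  | succ N ih =>
    intro b
    obtain ⟨v, hv, hvs, h1⟩ := ih (b + (2 + 4 * Real.exp β) * ‖x S.vac‖ ^ 2)
    obtain ⟨w, hw, hws, h2⟩ := exists_step S herg hω T hαβ hx hxs hq a b hv hvs
    refine ⟨w, hw, hws, le_trans ?_ h2⟩
    have h3 : 0 ≤ (N + 1 : ℝ) * ((2 + 4 * Real.exp β) * ‖x S.vac‖ ^ 2 * ‖x S.vac‖ ^ 2) := by
      positivity
    push_cast
    linarith

include herg hω hαβ hx hxs hq in
lemma exists_spread (l : ℝ) : ∃ u ∈ S.M, S.D.SupportedIn (Set.Icc α β) (u S.vac) ∧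
    l * q - 1 - (2 + 4 * Real.exp β) * ‖x S.vac‖ ^ 2 * ‖x S.vac‖ ^ 2 ≤
      l * ‖T (u S.vac)‖ ^ 2 - ‖star u (u S.vac)‖ ^ 2 := by
  obtain ⟨N, hN⟩ := exists_nat_ge (‖star x (x S.vac)‖ ^ 2 + 1)
  have hN0 : (0 : ℝ) < N := lt_of_lt_of_le (by positivity) hN
  obtain ⟨w, hw, hws, h⟩ := exists_iter S herg hω T hαβ hx hxs hq (l * N) N 0
  set r : ℝ := (Real.sqrt N)⁻¹ with hr
  have hr0 : 0 ≤ r := by positivity
  have hr2 : r ^ 2 = (N : ℝ)⁻¹ := by rw [hr, inv_pow, Real.sq_sqrt hN0.le]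
  refine ⟨(r : ℂ) • w, smul_mem_vN _ _ hw, supp_smul _ hws, ?_⟩
  have e1 : ‖T (((r : ℂ) • w) S.vac)‖ ^ 2 = (N : ℝ)⁻¹ * ‖T (w S.vac)‖ ^ 2 := by
    rw [smul_apply, map_smul, norm_smul, mul_pow, Complex.norm_real,
      Real.norm_eq_abs, sq_abs, hr2]
  have e2 : ‖star ((r : ℂ) • w) (((r : ℂ) • w) S.vac)‖ ^ 2 =
      (N : ℝ)⁻¹ ^ 2 * ‖star w (w S.vac)‖ ^ 2 := by
    rw [star_smul, smul_apply, smul_apply, map_smul,
      norm_smul, norm_smul, norm_star, Complex.norm_real, Real.norm_eq_abs, abs_of_nonneg hr0,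
      ← hr2]
    ring
  rw [e1, e2]
  simp only [pot, zero_mul, mul_zero, sub_zero] at h
  have h2 : (N : ℝ) * (‖star x (x S.vac)‖ ^ 2 + 1) ≤ N * N := by gcongr
  have h3 : (N : ℝ) ^ 2 * (l * q - 1 - (2 + 4 * Real.exp β) * ‖x S.vac‖ ^ 2 * ‖x S.vac‖ ^ 2) ≤
      l * N * ‖T (w S.vac)‖ ^ 2 - ‖star w (w S.vac)‖ ^ 2 := by linarith
  have h4 : l * ((N : ℝ)⁻¹ * ‖T (w S.vac)‖ ^ 2) - (N : ℝ)⁻¹ ^ 2 * ‖star w (w S.vac)‖ ^ 2 =
      (l * N * ‖T (w S.vac)‖ ^ 2 - ‖star w (w S.vac)‖ ^ 2) / N ^ 2 := by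
    field_simp
  rw [h4, le_div_iff₀ (by positivity)]
  linarith

end Step

omit [CompleteSpace H] in
lemma sq_norm_ge (T : H →L[ℂ] H) (x y : H) :
    ‖T x‖ ^ 2 / 2 - ‖T‖ ^ 2 * ‖y - x‖ ^ 2 ≤ ‖T y‖ ^ 2 := by
  have h1 : ‖T x‖ ≤ ‖T y‖ + ‖T‖ * ‖y - x‖ := by
    calc ‖T x‖ = ‖T y - T (y - x)‖ := by rw [map_sub]; congr 1; abel
      _ ≤ ‖T y‖ + ‖T (y - x)‖ := norm_sub_le _ _
      _ ≤ _ := by gcongr; exact T.le_opNorm _
  have h2 : ‖T x‖ ^ 2 ≤ (‖T y‖ + ‖T‖ * ‖y - x‖) ^ 2 := by gcongr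
  nlinarith [sq_nonneg (‖T y‖ - ‖T‖ * ‖y - x‖)]

/-- Bounded recovery for one vector, with constants independent of the band width. -/
lemma recovery (S : ModularDatum H) (herg : S.Ergodic) {ω : Ultrafilter ℕ}
    (hω : (ω : Filter ℕ) ≤ atTop) (T : H →L[ℂ] H) (s : ℝ) {c : ℝ} (hc : 0 < c) :
    ∃ C η : ℝ, 0 < η ∧ ∀ δ : ℝ, 0 < δ → δ ≤ 1 → ∀ h : H, ‖h‖ = 1 →
      S.D.SupportedIn (Set.Icc (s - δ) (s + δ)) h →
      c ≤ ultraMean ω (fun t : ℝ => ‖T (S.D.wave t h)‖ ^ 2) →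
      ∃ v ∈ S.M, ‖v‖ ≤ C ∧ η ≤ ‖T (v S.vac)‖ ∧
        S.D.SupportedIn (Set.Icc (s - 4 * δ) (s + 4 * δ)) (v S.vac) := by
  obtain ⟨C₀, hC₀, hband⟩ := exists_band_approx (H := H)
  set τ : ℝ := ‖T‖ + 1 with hτ
  have hτ0 : 0 < τ := by positivity
  have hTτ : ‖T‖ ≤ τ := by linarith
  set K : ℝ := 1 + (2 + 4 * Real.exp (s + 2)) * 4 * 4 with hK
  have hK0 : 0 < K := by positivity
  set l : ℝ := 8 * K / c with hl
  have hl0 : 0 < l := by positivity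
  set R : ℝ := Real.sqrt (2 * l) * τ with hR
  have hR0 : 0 < R := by positivity
  have hR2 : R ^ 2 = 2 * l * τ ^ 2 := by rw [hR, mul_pow, Real.sq_sqrt (by positivity)]
  refine ⟨C₀ * R, Real.sqrt c / 4, by positivity, fun δ hδ hδ1 h hh hhs hch => ?_⟩
  -- approximate `h` by a band-limited vector from the algebra
  set ε : ℝ := min 1 (Real.sqrt c / (2 * τ)) with hε
  have hε0 : 0 < ε := by positivity
  obtain ⟨_, ⟨a, rfl⟩, ha⟩ := Metric.mem_closure_iff.1 (S.cyclic h) ε hε0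
  rw [dist_comm, dist_eq_norm] at ha
  obtain ⟨x, hx, -, hxs, hxh⟩ := hband S s δ hδ a a.2 h hhs
  have hxh' : ‖x S.vac - h‖ ≤ ε := hxh.trans ha.le
  have hxn : ‖x S.vac‖ ≤ 2 := by
    calc ‖x S.vac‖ = ‖(x S.vac - h) + h‖ := by rw [sub_add_cancel]
      _ ≤ ‖x S.vac - h‖ + ‖h‖ := norm_add_le _ _
      _ ≤ 1 + 1 := add_le_add (hxh'.trans (min_le_left _ _)) hh.le
      _ = 2 := by norm_num
  have hbd : ∀ (z : H) (t : ℝ), ‖‖T (S.D.wave t z)‖ ^ 2‖ ≤ (‖T‖ * ‖z‖) ^ 2 := fun z t => by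
    rw [Real.norm_eq_abs, abs_of_nonneg (by positivity)]
    gcongr
    exact (T.le_opNorm _).trans (by rw [norm_wave])
  have hcont : ∀ z : H, Continuous fun t => ‖T (S.D.wave t z)‖ ^ 2 := fun z =>
    ((T.continuous.comp (continuous_wave S.D _)).norm).pow 2
  obtain ⟨q, -, hq⟩ := exists_hasMean ω (hbd (x S.vac))
  have hq4 : c / 4 ≤ q := by
    have h1 := hasMean_ultraMean ω (hbd h)
    have h2 := (h1.const_mul (1 / 2)).add (hasMean_const hω (-(c / 4)))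
      (continuous_const.mul (hcont h)) continuous_const
    have h3 := h2.le_of_le hq ((continuous_const.mul (hcont h)).add continuous_const) (hcont _)
      (fun t => by
        have h4 := sq_norm_ge T (S.D.wave t h) (S.D.wave t (x S.vac))
        rw [← map_sub, norm_wave] at h4
        have h5 : ‖T‖ * ‖x S.vac - h‖ ≤ τ * (Real.sqrt c / (2 * τ)) :=
          mul_le_mul hTτ (hxh'.trans (min_le_right _ _)) (norm_nonneg _) hτ0.le
        have h6 : τ * (Real.sqrt c / (2 * τ)) = Real.sqrt c / 2 := by field_simp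
        have h7 : (‖T‖ * ‖x S.vac - h‖) ^ 2 ≤ (Real.sqrt c / 2) ^ 2 := by
          rw [← h6]; gcongr
        rw [div_pow, Real.sq_sqrt hc.le, mul_pow] at h7
        linarith)
    linarith
  obtain ⟨u, hu, hus, hpot⟩ := exists_spread S herg hω T (by linarith) hx hxs hq l
  obtain ⟨u', hu', hu'n, hu'e⟩ := exists_truncation S.M hu hR0 S.vac
  obtain ⟨v, hv, hvn, hvs, hve⟩ := hband S s (2 * δ) (by positivity) u' hu' (u S.vac) hus
  refine ⟨v, hv, hvn.trans (by gcongr), ?_, by convert hvs using 3 <;> ring⟩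
  have h1 := sq_norm_ge T (u S.vac) (v S.vac)
  have h2 : ‖T‖ * ‖v S.vac - u S.vac‖ ≤ τ * (‖star u (u S.vac)‖ / R) :=
    mul_le_mul hTτ (hve.trans hu'e) (norm_nonneg _) hτ0.le
  have h3 : (‖T‖ * ‖v S.vac - u S.vac‖) ^ 2 ≤ ‖star u (u S.vac)‖ ^ 2 / (2 * l) := by
    calc _ ≤ (τ * (‖star u (u S.vac)‖ / R)) ^ 2 := by gcongr
      _ = _ := by rw [mul_pow, div_pow, hR2]; field_simp
  have h4 : (2 + 4 * Real.exp (s + 2 * δ)) * ‖x S.vac‖ ^ 2 * ‖x S.vac‖ ^ 2 ≤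
      (2 + 4 * Real.exp (s + 2)) * 4 * 4 := by
    have h5 : ‖x S.vac‖ ^ 2 ≤ 4 := by nlinarith [norm_nonneg (x S.vac)]
    gcongr
    linarith
  have h5 : l * (c / 4) - K ≤ l * ‖T (u S.vac)‖ ^ 2 - ‖star u (u S.vac)‖ ^ 2 := by
    have : l * (c / 4) ≤ l * q := by gcongr
    linarith
  have h6 : c / 16 ≤ ‖T (u S.vac)‖ ^ 2 / 2 - ‖star u (u S.vac)‖ ^ 2 / (2 * l) := by
    have e1 : ‖T (u S.vac)‖ ^ 2 / 2 - ‖star u (u S.vac)‖ ^ 2 / (2 * l) =
        (l * ‖T (u S.vac)‖ ^ 2 - ‖star u (u S.vac)‖ ^ 2) / (2 * l) := by field_simp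
    have e2 : K = l * c / 8 := by rw [hl]; field_simp
    rw [e1, le_div_iff₀ (by positivity)]
    linarith
  have h7 : (Real.sqrt c / 4) ^ 2 ≤ ‖T (v S.vac)‖ ^ 2 := by
    rw [div_pow, Real.sq_sqrt hc.le]
    rw [mul_pow] at h3
    linarith
  exact (sq_le_sq₀ (by positivity) (norm_nonneg _)).1 h7

end Crest.Agent.R84
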