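import Crest.Agent.R84.Calculus

/-! Consequences of the Tomita condition: the vacuum is fixed by the modular group, and the
adjoint map is bounded on spectral bands. -/

set_option autoImplicit false

namespace Crest.Agent.R84

open Crest.OpAlg Crest.OpAlg.LineCalculus MeasureTheory Filter
open scoped Topology BoundedContinuousFunction InnerProductSpace

variable {H : Type*} [NormedAddCommGroup H] [InnerProductSpace ℂ H] [CompleteSpace H]

lemma halfExp_of_mem (S : ModularDatum H) {a : H →L[ℂ] H} (ha : a ∈ S.M) :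
    S.D.HalfExp (a S.vac) (S.J (star a S.vac)) := by
  have h : (a S.vac, star a S.vac) ∈ closure (Set.range fun a : S.M =>
      ((a : H →L[ℂ] H) S.vac, star (a : H →L[ℂ] H) S.vac)) :=
    subset_closure ⟨⟨a, ha⟩, rfl⟩
  rw [S.tomita] at h
  exact h

lemma exists_mul_halfExp {f : ℝ →ᵇ ℂ} (hf : HasCompactSupport (f : ℝ → ℂ)) :
    ∃ g : ℝ →ᵇ ℂ, HasCompactSupport (g : ℝ → ℂ) ∧
      ∀ u, g u = f u * ((Real.exp (u / 2) : ℝ) : ℂ) := by
  have hc : HasCompactSupport fun u => f u * ((Real.exp (u / 2) : ℝ) : ℂ) := hf.mul_right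
  obtain ⟨g, hg⟩ := exists_bcf_of_compactSupport (by fun_prop) hc
  refine ⟨g, ?_, hg⟩
  have : (g : ℝ → ℂ) = fun u => f u * ((Real.exp (u / 2) : ℝ) : ℂ) := funext hg
  rw [this]; exact hc

/-- On a spectral band, `‖a⋆ ξ‖ ≤ e^{β/2} ‖a ξ‖`. -/
lemma norm_star_vac_le (S : ModularDatum H) {a : H →L[ℂ] H} (ha : a ∈ S.M) {α β : ℝ}
    (hαβ : α ≤ β) (hs : S.D.SupportedIn (Set.Icc α β) (a S.vac)) :
    ‖star a S.vac‖ ≤ Real.exp (β / 2) * ‖a S.vac‖ := by
  refine le_of_forall_pos_le_add fun ε hε => ?_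
  set y := S.J (star a S.vac) with hy
  have hny : ‖y‖ = ‖star a S.vac‖ := S.J.norm_map _
  obtain ⟨χ, h1, h2, h3⟩ := exists_cutoff_approx S.D y hε
  obtain ⟨g, -, hg⟩ := exists_mul_halfExp h1
  have h4 := halfExp_of_mem S ha χ g hg
  have h5 : ‖S.D.apply g (a S.vac)‖ ≤ Real.exp (β / 2) * ‖a S.vac‖ := by
    refine supp_norm_le hαβ hs g fun u hu => ?_
    rw [hg u, norm_mul, Complex.norm_real, Real.norm_eq_abs, abs_of_pos (Real.exp_pos _)]
    have h6 : ‖χ u‖ ≤ 1 := (χ.norm_coe_le_norm u).trans h2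
    have h7 : Real.exp (u / 2) ≤ Real.exp (β / 2) := Real.exp_le_exp.2 (by linarith [hu.2])
    calc _ ≤ 1 * Real.exp (β / 2) := by gcongr
      _ = _ := one_mul _
  rw [← hny]
  calc ‖y‖ = ‖S.D.apply χ y - (S.D.apply χ y - y)‖ := by congr 1; abel
    _ ≤ ‖S.D.apply χ y‖ + ‖S.D.apply χ y - y‖ := norm_sub_le _ _
    _ ≤ _ := add_le_add (by rw [hy, h4]; exact h5) h3

lemma re_inner_J (S : ModularDatum H) (x y : H) :
    (⟪S.J x, S.J y⟫_ℂ).re = (⟪x, y⟫_ℂ).re := by
  have h1 := @norm_add_sq ℂ _ _ _ _ (S.J x) (S.J y)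
  have h2 := @norm_add_sq ℂ _ _ _ _ x y
  rw [← map_add, S.J.norm_map, S.J.norm_map, S.J.norm_map] at h1
  simp only [RCLike.re_to_complex] at h1 h2
  linarith

lemma inner_graph (S : ModularDatum H) {x y : H} (h : S.D.HalfExp x (S.J y)) :
    ⟪y, S.vac⟫_ℂ = ⟪S.vac, x⟫_ℂ := by
  have h1 : (x, y) ∈ closure (Set.range fun a : S.M =>
      ((a : H →L[ℂ] H) S.vac, star (a : H →L[ℂ] H) S.vac)) := by
    rw [S.tomita]; exact h
  have hcl : IsClosed {p : H × H | ⟪p.2, S.vac⟫_ℂ = ⟪S.vac, p.1⟫_ℂ} :=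
    isClosed_eq (by fun_prop) (by fun_prop)
  refine closure_minimal (t := {p : H × H | ⟪p.2, S.vac⟫_ℂ = ⟪S.vac, p.1⟫_ℂ}) ?_ hcl h1
  rintro _ ⟨a, rfl⟩
  simp only [Set.mem_ofPred_eq, ContinuousLinearMap.star_eq_adjoint,
    ContinuousLinearMap.adjoint_inner_left]

lemma apply_J_vac (S : ModularDatum H) {g g' : ℝ →ᵇ ℂ}
    (hg : ∀ u, g' u = g u * ((Real.exp (u / 2) : ℝ) : ℂ)) :
    S.D.apply g' (S.J S.vac) = S.D.apply g S.vac := by
  have key : ∀ y : H, (⟪S.D.apply g' (S.J S.vac) - S.D.apply g S.vac, y⟫_ℂ).re = 0 := by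
    intro y
    have h1 : S.D.HalfExp (S.D.apply (star g) y) (S.J (S.J (S.D.apply (star g') y))) := by
      rw [S.J_J]
      intro f f' hf
      rw [← apply_mul_apply, ← apply_mul_apply]
      congr 2
      ext u
      simp only [BoundedContinuousFunction.mul_apply, BoundedContinuousFunction.star_apply, hf u,
        hg u, star_mul', RCLike.star_def, Complex.conj_ofReal]
      ring
    have h2 := inner_graph S h1
    have h3 := re_inner_J S (S.D.apply (star g') y) (S.J S.vac)
    rw [S.J_J, h2] at h3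
    rw [inner_sub_left, inner_apply_left, inner_apply_left, Complex.sub_re, h3,
      ← inner_conj_symm (S.J S.vac), Complex.conj_re, sub_self]
  have h := key (S.D.apply g' (S.J S.vac) - S.D.apply g S.vac)
  rw [inner_self_eq_norm_sq_to_K] at h
  have h' : ‖S.D.apply g' (S.J S.vac) - S.D.apply g S.vac‖ ^ 2 = 0 := by
    rw [← h]; norm_cast
  exact sub_eq_zero.1 (norm_eq_zero.1 (pow_eq_zero_iff two_ne_zero |>.1 h'))

lemma exists_quot (t : ℝ) : ∃ q : ℝ → ℂ, Continuous q ∧
    ∀ u, q u * (((Real.exp u : ℝ) : ℂ) - 1) = character t u - 1 := by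
  let A : ℝ → ℂ := fun u => Complex.exp (Complex.I * ((t * u : ℝ) : ℂ))
  have hA : Differentiable ℝ A := by
    have : Differentiable ℝ fun u : ℝ => ((t * u : ℝ) : ℂ) :=
      Complex.ofRealCLM.differentiable.comp (differentiable_id.const_mul t)
    exact (this.const_mul Complex.I).cexp
  have hcA : Continuous (dslope A 0) := by
    rw [← continuousOn_univ, continuousOn_dslope univ_mem]
    exact ⟨hA.continuous.continuousOn, hA 0⟩
  have hcB : Continuous (dslope Real.exp 0) := by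
    rw [← continuousOn_univ, continuousOn_dslope univ_mem]
    exact ⟨Real.continuous_exp.continuousOn, Real.differentiable_exp 0⟩
  have hB : ∀ u, u * dslope Real.exp 0 u = Real.exp u - 1 := fun u => by
    simpa using sub_smul_dslope Real.exp 0 u
  have hA' : ∀ u : ℝ, (u : ℂ) * dslope A 0 u = character t u - 1 := fun u => by
    simpa [A, character_apply] using sub_smul_dslope A 0 u
  have hne : ∀ u, dslope Real.exp 0 u ≠ 0 := fun u h => by
    by_cases hu : u = 0
    · subst hu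
      simp at h
    · have := hB u
      rw [h, mul_zero] at this
      exact hu (by simpa using (sub_eq_zero.1 this.symm))
  refine ⟨fun u => dslope A 0 u / ((dslope Real.exp 0 u : ℝ) : ℂ),
    hcA.div (Complex.continuous_ofReal.comp hcB) (fun u => by exact_mod_cast hne u), fun u => ?_⟩
  have h1 : (((Real.exp u : ℝ) : ℂ) - 1) = (u : ℂ) * ((dslope Real.exp 0 u : ℝ) : ℂ) := by
    exact_mod_cast (hB u).symm
  have h2 : ((dslope Real.exp 0 u : ℝ) : ℂ) ≠ 0 := by exact_mod_cast hne u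
  rw [h1, ← hA' u]
  field_simp

/-- The vacuum vector is fixed by the modular group. -/
lemma wave_vac (S : ModularDatum H) (t : ℝ) : S.D.wave t S.vac = S.vac := by
  obtain ⟨q, hq, hq'⟩ := exists_quot t
  have key : ∀ χ : ℝ →ᵇ ℂ, HasCompactSupport (χ : ℝ → ℂ) →
      S.D.wave t (S.D.apply χ S.vac) = S.D.apply χ S.vac := by
    intro χ hχ
    have hc : HasCompactSupport fun u => q u * χ u := hχ.mul_left
    obtain ⟨g, hg⟩ := exists_bcf_of_compactSupport (by fun_prop) hc
    have hgc : HasCompactSupport (g : ℝ → ℂ) := by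
      have : (g : ℝ → ℂ) = fun u => q u * χ u := funext hg
      rw [this]; exact hc
    obtain ⟨g', hg'c, hg'⟩ := exists_mul_halfExp hgc
    obtain ⟨g'', -, hg''⟩ := exists_mul_halfExp hg'c
    have h1 := apply_J_vac S hg'
    have h2 := halfExp_of_mem S (one_mem S.M) g' g'' hg''
    simp only [star_one, one_apply_eq_self] at h2
    have h3 : S.D.apply (g'' - g) S.vac = 0 := by rw [apply_sub_apply, ← h2, h1, sub_self]
    have h4 : g'' - g = character t * χ - χ := by
      ext u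
      have h5 : ((Real.exp (u / 2) : ℝ) : ℂ) * ((Real.exp (u / 2) : ℝ) : ℂ) =
          ((Real.exp u : ℝ) : ℂ) := by
        rw [← Complex.ofReal_mul, ← Real.exp_add]; congr 2; ring
      simp only [BoundedContinuousFunction.sub_apply, BoundedContinuousFunction.mul_apply,
        hg'' u, hg' u, hg u]
      have h6 := hq' u
      rw [← h5] at h6
      linear_combination χ u * h6
    rw [h4, apply_sub_apply, apply_mul_apply, sub_eq_zero] at h3
    exact h3
  refine eq_of_norm_sub_le_zero (le_of_forall_pos_le_add fun ε hε => ?_)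
  obtain ⟨χ, h1, -, h3⟩ := exists_cutoff_approx S.D S.vac (ε := ε / 2) (by positivity)
  have e1 : S.D.wave t S.vac - S.vac =
      (S.D.apply χ S.vac - S.vac) - S.D.wave t (S.D.apply χ S.vac - S.vac) := by
    rw [map_sub, key χ h1]; abel
  rw [e1]
  calc _ ≤ ‖S.D.apply χ S.vac - S.vac‖ + ‖S.D.wave t (S.D.apply χ S.vac - S.vac)‖ :=
        norm_sub_le _ _
    _ ≤ ε / 2 + ε / 2 := by rw [norm_wave]; exact add_le_add h3 h3
    _ = _ := by ring

section Flow

variable (S : ModularDatum H)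

lemma flow_apply (t : ℝ) (a : H →L[ℂ] H) (x : H) :
    S.flow t a x = S.D.wave t (a (S.D.wave (-t) x)) := rfl

lemma flow_mem (t : ℝ) {a : H →L[ℂ] H} (ha : a ∈ S.M) : S.flow t a ∈ S.M := S.flow_mem t a ha

lemma flow_vac (t : ℝ) (a : H →L[ℂ] H) : S.flow t a S.vac = S.D.wave t (a S.vac) := by
  rw [flow_apply, wave_vac]

lemma norm_flow_apply_le (t : ℝ) (a : H →L[ℂ] H) (x : H) : ‖S.flow t a x‖ ≤ ‖a‖ * ‖x‖ := by
  rw [flow_apply, norm_wave]
  exact (a.le_opNorm _).trans (by rw [norm_wave])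

lemma star_flow (t : ℝ) (a : H →L[ℂ] H) : star (S.flow t a) = S.flow t (star a) := by
  simp only [ModularDatum.flow, star_mul, star_wave, neg_neg, mul_assoc]

lemma flow_mul (t : ℝ) (a b : H →L[ℂ] H) : S.flow t (a * b) = S.flow t a * S.flow t b := by
  ext x
  simp only [mul_apply_eq_comp, flow_apply, wave_neg_wave]

lemma continuous_flow (a : H →L[ℂ] H) (x : H) : Continuous fun t => S.flow t a x := by
  have h1 : Continuous fun t => a (S.D.wave (-t) x) :=
    a.continuous.comp ((continuous_wave S.D x).comp continuous_neg)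
  rw [continuous_iff_continuousAt]
  intro t₀
  rw [ContinuousAt, tendsto_iff_norm_sub_tendsto_zero]
  have h2 : Tendsto (fun t => ‖a (S.D.wave (-t) x) - a (S.D.wave (-t₀) x)‖ +
      ‖S.D.wave t (a (S.D.wave (-t₀) x)) - S.D.wave t₀ (a (S.D.wave (-t₀) x))‖) (𝓝 t₀) (𝓝 0) := by
    have h3 := tendsto_iff_norm_sub_tendsto_zero.1 (h1.tendsto t₀)
    have h4 := tendsto_iff_norm_sub_tendsto_zero.1
      ((continuous_wave S.D (a (S.D.wave (-t₀) x))).tendsto t₀)
    simpa using h3.add h4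
  refine squeeze_zero (fun t => norm_nonneg _) (fun t => ?_) h2
  rw [flow_apply, flow_apply, ← norm_wave S.D t (a (S.D.wave (-t) x) - _), map_sub]
  exact norm_sub_le_norm_sub_add_norm_sub _ _ _

end Flow

lemma mem_of_commute (M : VonNeumannAlgebra H) {b : H →L[ℂ] H}
    (h : ∀ z ∈ M.commutant, z * b = b * z) : b ∈ M := by
  rw [← M.commutant_commutant, VonNeumannAlgebra.mem_commutant_iff]
  exact h

lemma commute_of_mem (M : VonNeumannAlgebra H) {a z : H →L[ℂ] H} (ha : a ∈ M)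
    (hz : z ∈ M.commutant) (x : H) : z (a x) = a (z x) := by
  have := VonNeumannAlgebra.mem_commutant_iff.1 hz a ha
  exact (congrArg (fun f : H →L[ℂ] H => f x) this).symm

lemma smul_mem_vN (M : VonNeumannAlgebra H) (c : ℂ) {a : H →L[ℂ] H} (ha : a ∈ M) : c • a ∈ M :=
  M.toStarSubalgebra.smul_mem ha c

end Crest.Agent.R84
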